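import Crest.Prelude.Def_QuadricHamiltonian

/-!
The algebra of the example: moment-map coordinates, the vector field, its Hamiltonian, the
rotation path, and the three relative equilibria.
-/

set_option autoImplicit false

open Crest.GeometryTopology.Quadric Complex
open scoped ContDiff

noncomputable section

namespace Crest.Agent.R205

/-- complex 5-space -/
abbrev E : Type := Fin 5 → ℂ

/-- four times the moment-map coordinate `Im (conj z_j z_k)` -/
def mu (j k : Fin 5) (z : E) : ℝ := 4 * ((z j).re * (z k).im - (z j).im * (z k).re)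

/-- action of a real antisymmetric matrix on the first four coordinates -/
def act (a b c d e f : ℝ) (z : E) : E :=
  ![a * z 1 + b * z 2 + c * z 3, -a * z 0 + d * z 2 + e * z 3,
    -b * z 0 - d * z 1 + f * z 3, -c * z 0 - e * z 1 - f * z 2, 0]

/-- the vector field -/
def X (z : E) : E :=
  act (mu 0 1 z + 1) (mu 0 2 z + 1) (mu 0 3 z) (-mu 1 2 z) (1 - mu 1 3 z) (1 - mu 2 3 z) z

/-- its Hamiltonian -/
def G (z : E) : ℝ :=
  -(1 / 4) * (mu 0 1 z ^ 2 + mu 0 2 z ^ 2 + mu 0 3 z ^ 2 - mu 1 2 z ^ 2 - mu 1 3 z ^ 2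
    - mu 2 3 z ^ 2) - (1 / 2) * (mu 0 1 z + mu 0 2 z + mu 1 3 z + mu 2 3 z)

/-- real part of a coordinate -/
def reL (j : Fin 5) : E →L[ℝ] ℝ := Complex.reCLM.comp (ContinuousLinearMap.proj j)
/-- imaginary part of a coordinate -/
def imL (j : Fin 5) : E →L[ℝ] ℝ := Complex.imCLM.comp (ContinuousLinearMap.proj j)

@[simp] theorem reL_apply (j : Fin 5) (z : E) : reL j z = (z j).re := rfl
@[simp] theorem imL_apply (j : Fin 5) (z : E) : imL j z = (z j).im := rfl

/-- the derivative of `mu` -/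
def dmu (j k : Fin 5) (z : E) : E →L[ℝ] ℝ :=
  (4 : ℝ) • (((z j).re • imL k + (z k).im • reL j) - ((z j).im • reL k + (z k).re • imL j))

theorem dmu_apply (j k : Fin 5) (z w : E) : dmu j k z w =
    4 * ((z j).re * (w k).im + (z k).im * (w j).re - ((z j).im * (w k).re + (z k).re * (w j).im)) := by
  simp [dmu]

theorem hasFDerivAt_mu (j k : Fin 5) (z : E) : HasFDerivAt (mu j k) (dmu j k z) z := by
  have h := (((reL j).hasFDerivAt (x := z)).mul ((imL k).hasFDerivAt (x := z))).sub
    (((imL j).hasFDerivAt (x := z)).mul ((reL k).hasFDerivAt (x := z)))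
  exact h.const_mul (4 : ℝ)

theorem contDiff_mu (j k : Fin 5) : ContDiff ℝ ∞ (mu j k) := by
  have h : ContDiff ℝ ∞ (fun z : E => 4 * (reL j z * imL k z - imL j z * reL k z)) :=
    contDiff_const.mul (((reL j).contDiff.mul (imL k).contDiff).sub
      ((imL j).contDiff.mul (reL k).contDiff))
  exact h

theorem contDiff_G : ContDiff ℝ ∞ G := by
  have := contDiff_mu
  unfold G
  fun_prop

/-- the derivative of `G` -/
def dG (z : E) : E →L[ℝ] ℝ :=
  -(1 / 2 : ℝ) • ((mu 0 1 z + 1) • dmu 0 1 z + (mu 0 2 z + 1) • dmu 0 2 z + mu 0 3 z • dmu 0 3 z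
    + (-mu 1 2 z) • dmu 1 2 z + (1 - mu 1 3 z) • dmu 1 3 z + (1 - mu 2 3 z) • dmu 2 3 z)

theorem hasFDerivAt_G (z : E) : HasFDerivAt G (dG z) z := by
  have h := fun j k => hasFDerivAt_mu j k z
  have h1 := ((((((((h 0 1).pow 2).add ((h 0 2).pow 2)).add ((h 0 3).pow 2)).sub
    ((h 1 2).pow 2)).sub ((h 1 3).pow 2)).sub ((h 2 3).pow 2)).const_mul (-(1 / 4) : ℝ)).sub
    (((((h 0 1).add (h 0 2)).add (h 1 3)).add (h 2 3)).const_mul (1 / 2 : ℝ))
  refine HasFDerivAt.congr_fderiv h1 ?_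
  ext w
  simp [dG]
  ring

theorem contDiff_X : ContDiff ℝ ∞ X := by
  have h : ∀ j k, ContDiff ℝ ∞ (fun z => (mu j k z : ℂ)) := fun j k =>
    Complex.ofRealCLM.contDiff.comp (contDiff_mu j k)
  have hp : ∀ j : Fin 5, ContDiff ℝ ∞ (fun z : E => z j) := fun j => contDiff_apply ℝ ℂ j
  refine contDiff_pi.2 fun i => ?_
  fin_cases i <;> simp [X, act] <;> fun_prop

theorem sum_mul_act (a b c d e f : ℝ) (z : E) : ∑ j, z j * act a b c d e f z j = 0 := by
  simp [Fin.sum_univ_five, act]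
  ring

theorem herm_act_re (a b c d e f : ℝ) (z : E) : (herm z (act a b c d e f z)).re = 0 := by
  simp [herm, Fin.sum_univ_five, act]
  ring

theorem ham_act (a b c d e f : ℝ) (z w : E) : 2 * (herm (act a b c d e f z) w).im =
    -(1 / 2) * (a * dmu 0 1 z w + b * dmu 0 2 z w + c * dmu 0 3 z w + d * dmu 1 2 z w
      + e * dmu 1 3 z w + f * dmu 2 3 z w) := by
  simp [herm, Fin.sum_univ_five, act, dmu_apply]
  ring

theorem ham_X (z w : E) : 2 * (herm (X z) w).im = dG z w := by
  rw [X, ham_act]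
  simp [dG]
  ring

theorem mu_smul {c : ℂ} (hc : ‖c‖ = 1) (j k : Fin 5) (z : E) : mu j k (c • z) = mu j k z := by
  have h : c.re ^ 2 + c.im ^ 2 = 1 := by
    have := Complex.sq_norm c
    rw [hc, Complex.normSq_apply] at this
    linarith
  simp only [mu, Pi.smul_apply, smul_eq_mul, mul_re, mul_im]
  linear_combination (4 * ((z j).re * (z k).im - (z j).im * (z k).re)) * h

theorem act_smul (a b c d e f : ℝ) (s : ℂ) (z : E) :
    act a b c d e f (s • z) = s • act a b c d e f z := by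
  ext i
  fin_cases i <;> simp [act] <;> ring

theorem X_smul {c : ℂ} (hc : ‖c‖ = 1) (z : E) : X (c • z) = c • X z := by
  simp only [X, mu_smul hc, act_smul]

theorem G_smul {c : ℂ} (hc : ‖c‖ = 1) (z : E) : G (c • z) = G z := by
  simp only [G, mu_smul hc]

theorem X_four (z : E) : X z 4 = 0 := rfl

theorem X_zero : X 0 = 0 := by
  ext i
  fin_cases i <;> simp [X, act]

/-- projection to the first four coordinates -/
def Pl : E →L[ℂ] E := LinearMap.toContinuousLinearMap
  { toFun := fun z => ![z 0, z 1, z 2, z 3, 0]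
    map_add' := fun x y => by ext i; fin_cases i <;> simp
    map_smul' := fun c x => by ext i; fin_cases i <;> simp }

/-- the generator of the rotation -/
def Jl : E →L[ℂ] E := LinearMap.toContinuousLinearMap
  { toFun := fun z => ![-z 1, z 0, -z 3, z 2, 0]
    map_add' := fun x y => by ext i; fin_cases i <;> simp <;> ring
    map_smul' := fun c x => by ext i; fin_cases i <;> simp }

/-- projection to the last coordinate -/
def Ql : E →L[ℂ] E := LinearMap.toContinuousLinearMap
  { toFun := fun z => ![0, 0, 0, 0, z 4]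
    map_add' := fun x y => by ext i; fin_cases i <;> simp
    map_smul' := fun c x => by ext i; fin_cases i <;> simp }

theorem Pl_apply (z : E) : Pl z = ![z 0, z 1, z 2, z 3, 0] := rfl
theorem Jl_apply (z : E) : Jl z = ![-z 1, z 0, -z 3, z 2, 0] := rfl
theorem Ql_apply (z : E) : Ql z = ![0, 0, 0, 0, z 4] := rfl

/-- rotation by the angle `θ` in the planes `(0,1)` and `(2,3)` -/
def rot (θ : ℝ) (z : E) : E := Real.cos θ • Pl z + Real.sin θ • Jl z + Ql z

theorem rot_apply (θ : ℝ) (z : E) : rot θ z =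
    ![Real.cos θ * z 0 - Real.sin θ * z 1, Real.sin θ * z 0 + Real.cos θ * z 1,
      Real.cos θ * z 2 - Real.sin θ * z 3, Real.sin θ * z 2 + Real.cos θ * z 3, z 4] := by
  ext i
  fin_cases i <;> simp [rot, Pl_apply, Jl_apply, Ql_apply, -ofReal_cos, -ofReal_sin] <;> ring

/-- the rotation as a real continuous linear map -/
def rotL (θ : ℝ) : E →L[ℝ] E :=
  Real.cos θ • Pl.restrictScalars ℝ + Real.sin θ • Jl.restrictScalars ℝ + Ql.restrictScalars ℝ

theorem rotL_apply (θ : ℝ) (z : E) : rotL θ z = rot θ z := rfl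

theorem cs (θ : ℝ) : (Real.cos θ : ℂ) ^ 2 + (Real.sin θ : ℂ) ^ 2 = 1 := by
  exact_mod_cast Real.cos_sq_add_sin_sq θ

theorem rot_smul (θ : ℝ) (c : ℂ) (z : E) : rot θ (c • z) = c • rot θ z := by
  simp only [rot_apply]
  ext i
  fin_cases i <;> simp [-ofReal_cos, -ofReal_sin] <;> ring

theorem rot_neg_rot (θ : ℝ) (z : E) : rot (-θ) (rot θ z) = z := by
  have h := cs θ
  simp only [rot_apply, Real.cos_neg, Real.sin_neg]
  ext i
  fin_cases i <;> simp [-ofReal_cos, -ofReal_sin]
  · linear_combination (z 0) * h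
  · linear_combination (z 1) * h
  · linear_combination (z 2) * h
  · linear_combination (z 3) * h

theorem herm_rot (θ : ℝ) (u w : E) : herm (rot θ u) w = herm u (rot (-θ) w) := by
  simp only [rot_apply, Real.cos_neg, Real.sin_neg, herm, Fin.sum_univ_five]
  simp [-ofReal_cos, -ofReal_sin]
  ring

theorem sum_sq_rot (θ : ℝ) (z : E) : ∑ j, rot θ z j ^ 2 = ∑ j, z j ^ 2 := by
  have h := cs θ
  simp only [rot_apply, Fin.sum_univ_five]
  simp [-ofReal_cos, -ofReal_sin]
  linear_combination (z 0 ^ 2 + z 1 ^ 2 + z 2 ^ 2 + z 3 ^ 2) * h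

theorem rot_mem {θ : ℝ} {z : E} (hz : z ∈ unitCone) : rot θ z ∈ unitCone :=
  ⟨by rw [herm_rot, rot_neg_rot]; exact hz.1, by rw [sum_sq_rot]; exact hz.2⟩

theorem rot_zero (z : E) : rot 0 z = z := by
  rw [rot_apply]
  ext i
  fin_cases i <;> simp

theorem rot_pi (z : E) : rot Real.pi z = ![-z 0, -z 1, -z 2, -z 3, z 4] := by
  rw [rot_apply]
  ext i
  fin_cases i <;> simp

theorem Jl_rot (θ : ℝ) (z : E) : -Real.sin θ • Pl z + Real.cos θ • Jl z = Jl (rot θ z) := by
  rw [rot_apply]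
  ext i
  fin_cases i <;> simp [Pl_apply, Jl_apply, -ofReal_cos, -ofReal_sin] <;> ring

theorem ham_J (z w : E) : 2 * (herm (Jl z) w).im = (1 / 2) * (dmu 0 1 z w + dmu 2 3 z w) := by
  simp [herm, Fin.sum_univ_five, Jl_apply, dmu_apply]
  ring

theorem herm_add_left (u v w : E) : herm (u + v) w = herm u w + herm v w := by
  simp [herm, add_mul, Finset.sum_add_distrib]

theorem herm_real_smul_left (r : ℝ) (u w : E) : herm (r • u) w = r * herm u w := by
  simp [herm, Finset.mul_sum, mul_assoc]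

theorem herm_smul_smul (c : ℂ) (u : E) :
    herm (c • u) (c • u) = (‖c‖ ^ 2 : ℝ) * herm u u := by
  simp only [herm, Finset.mul_sum, Pi.smul_apply, smul_eq_mul, map_mul]
  refine Finset.sum_congr rfl fun j _ => ?_
  rw [← Complex.normSq_eq_norm_sq, Complex.normSq_eq_conj_mul_self]
  ring

theorem smul_mem {c : ℂ} (hc : ‖c‖ = 1) {z : E} (hz : z ∈ unitCone) : c • z ∈ unitCone := by
  refine ⟨by rw [herm_smul_smul, hc, hz.1]; simp, ?_⟩
  have := hz.2
  simp only [Pi.smul_apply, smul_eq_mul, mul_pow, ← Finset.mul_sum, this, mul_zero]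

theorem norm_eq_one_of_smul_mem {c : ℂ} {z : E} (hz : z ∈ unitCone) (h : c • z ∈ unitCone) :
    ‖c‖ = 1 := by
  have h1 := h.1
  rw [herm_smul_smul, hz.1, mul_one] at h1
  have h2 : ‖c‖ ^ 2 = 1 := by exact_mod_cast h1
  exact (pow_eq_one_iff_of_nonneg (norm_nonneg c) two_ne_zero).1 h2

theorem sum_normSq {z : E} (hz : z ∈ unitCone) : ∑ j, ‖z j‖ ^ 2 = 1 := by
  have h := congrArg Complex.re hz.1
  simp only [herm, re_sum, one_re] at h
  rw [← h]
  refine Finset.sum_congr rfl fun j _ => ?_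
  rw [← Complex.normSq_eq_conj_mul_self, ofReal_re, Complex.normSq_eq_norm_sq]

theorem norm_le_one {z : E} (hz : z ∈ unitCone) : ‖z‖ ≤ 1 := by
  refine (pi_norm_le_iff_of_nonneg zero_le_one).2 fun j => ?_
  have h := sum_normSq hz
  have h2 : ‖z j‖ ^ 2 ≤ ∑ j, ‖z j‖ ^ 2 :=
    Finset.single_le_sum (f := fun j => ‖z j‖ ^ 2) (fun _ _ => sq_nonneg _) (Finset.mem_univ j)
  nlinarith [norm_nonneg (z j)]

theorem third_le_norm {z : E} (hz : z ∈ unitCone) : 1 / 3 ≤ ‖z‖ := by
  have h := sum_normSq hz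
  have h2 : ∑ j, ‖z j‖ ^ 2 ≤ ∑ _j : Fin 5, ‖z‖ ^ 2 :=
    Finset.sum_le_sum fun j _ => pow_le_pow_left₀ (norm_nonneg _) (norm_le_pi_norm z j) 2
  simp only [Finset.sum_const, Finset.card_univ, Fintype.card_fin, nsmul_eq_mul] at h2
  by_contra hlt
  push Not at hlt
  norm_num at h2
  nlinarith [norm_nonneg z]

/-- the candidate equilibria -/
def pt (A B : ℝ) : E := ![A / 2, I / 2, I / 2, B / 2, 0]

theorem pt_mem {A B : ℝ} (h : A ^ 2 + B ^ 2 = 2) : pt A B ∈ unitCone := by
  have h' : (A : ℂ) ^ 2 + (B : ℂ) ^ 2 = 2 := by exact_mod_cast h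
  constructor
  · simp [herm, Fin.sum_univ_five, pt, map_ofNat]
    linear_combination (1 / 4) * h' - (1 / 2) * I_sq
  · simp [Fin.sum_univ_five, pt]
    linear_combination (1 / 4) * h' + (1 / 2) * I_sq

theorem X_pt {A B : ℝ} (h : A ^ 2 + B ^ 2 = 2) (h' : A + B = 1) :
    X (pt A B) = ((2 * (A - B) : ℝ) * I) • pt A B := by
  have h1 : (A : ℂ) ^ 2 + (B : ℂ) ^ 2 = 2 := by exact_mod_cast h
  have h2 : (A : ℂ) + (B : ℂ) = 1 := by exact_mod_cast h'
  ext i
  fin_cases i <;> simp [X, act, mu, pt]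
  · linear_combination (-I) * h1 + I * (B + 1) * h2
  · linear_combination (-(A - B : ℂ) / 2) * h2 - (A - B : ℂ) * I_sq
  · linear_combination (-(A - B : ℂ) / 2) * h2 - (A - B : ℂ) * I_sq
  · linear_combination I * h1 - I * (A + 1) * h2

/-- the kernel direction at the degenerate point -/
def wv : E := ![0, I, -I, 0, 0]

theorem X_pt_add (s : ℝ) : X (pt (-1) (-1) + s • wv) = (s ^ 2) • ![-4 * I, 0, 0, 4 * I, 0] := by
  ext i
  fin_cases i <;> simp [X, act, mu, pt, wv] <;> ring

theorem X_pt_star : X (pt (-1) (-1)) = 0 := by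
  have := X_pt_add 0
  simpa using this

/-- solving the commutator equations in the moment coordinates -/
theorem solve_moment {a b e f : ℝ}
    (hn : a ^ 2 + b ^ 2 + e ^ 2 + f ^ 2 = 4) (hp : a * f - b * e = 0)
    (h03 : 2 * a * e + 2 * b * f + e + f - a - b = 0) (h12 : a + e - b - f = 0) :
    b = a ∧ e = f ∧ a ^ 2 + f ^ 2 = 2 ∧ ((a = -1 ∧ f = 1) ∨ a - f = 1) := by
  obtain ⟨u, w, s, rfl, rfl, rfl, rfl⟩ :
      ∃ u w s : ℝ, a = u + s ∧ f = u - s ∧ b = w + s ∧ e = w - s :=
    ⟨(a + f) / 2, (b + e) / 2, (a - f) / 2, by ring, by ring, by linarith, by linarith⟩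
  have h1 : (u - w) * (u + w) = 0 := by linear_combination hp
  have h2 : u ^ 2 + s ^ 2 = 1 := by linear_combination (1 / 4) * hn + (1 / 2) * hp
  have h3 : u * w = s ^ 2 + s := by linear_combination (1 / 4) * h03
  have hs : s = -1 → u = 0 ∧ w = 0 := by
    rintro rfl
    have hu : u = 0 := by nlinarith
    subst hu
    exact ⟨rfl, by nlinarith⟩
  rcases mul_eq_zero.1 h1 with h | h
  · obtain rfl : u = w := by linarith
    have h4 : (2 * s - 1) * (s + 1) = 0 := by linear_combination h2 - h3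
    refine ⟨rfl, rfl, by linear_combination 2 * h2, ?_⟩
    rcases mul_eq_zero.1 h4 with h5 | h5
    · right; linarith
    · left
      obtain rfl : s = -1 := by linarith
      obtain ⟨rfl, -⟩ := hs rfl
      norm_num
  · obtain rfl : w = -u := by linarith
    obtain rfl : s = -1 := by linear_combination -h3 - h2
    obtain ⟨rfl, -⟩ := hs rfl
    norm_num

theorem critical {z : E} (hz : z ∈ unitCone) (h4 : z 4 = 0) {θ : ℝ}
    (hX : X z = ((θ : ℂ) * I) • z) :
    ∃ (c : ℂ) (A B : ℝ), A ^ 2 + B ^ 2 = 2 ∧ ((A = -1 ∧ B = -1) ∨ A + B = 1) ∧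
      z = c • pt A B := by
  have n1 := congrArg Complex.re hz.1
  have n2 := congrArg Complex.re hz.2
  have n3 := congrArg Complex.im hz.2
  simp [herm, Fin.sum_univ_five, h4, sq] at n1 n2 n3
  have r0 := congrArg Complex.re (congrFun hX 0)
  have r1 := congrArg Complex.re (congrFun hX 1)
  have r2 := congrArg Complex.re (congrFun hX 2)
  have r3 := congrArg Complex.re (congrFun hX 3)
  have i0 := congrArg Complex.im (congrFun hX 0)
  have i1 := congrArg Complex.im (congrFun hX 1)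
  have i2 := congrArg Complex.im (congrFun hX 2)
  have i3 := congrArg Complex.im (congrFun hX 3)
  simp [X, act] at r0 r1 r2 r3 i0 i1 i2 i3
  have ha : mu 0 1 z = 4 * ((z 0).re * (z 1).im - (z 0).im * (z 1).re) := rfl
  have hb : mu 0 2 z = 4 * ((z 0).re * (z 2).im - (z 0).im * (z 2).re) := rfl
  have hc : mu 0 3 z = 4 * ((z 0).re * (z 3).im - (z 0).im * (z 3).re) := rfl
  have hd : mu 1 2 z = 4 * ((z 1).re * (z 2).im - (z 1).im * (z 2).re) := rfl
  have he : mu 1 3 z = 4 * ((z 1).re * (z 3).im - (z 1).im * (z 3).re) := rfl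
  have hf : mu 2 3 z = 4 * ((z 2).re * (z 3).im - (z 2).im * (z 3).re) := rfl
  generalize mu 0 1 z = a at *
  generalize mu 0 2 z = b at *
  generalize mu 0 3 z = c at *
  generalize mu 1 2 z = d at *
  generalize mu 1 3 z = e at *
  generalize mu 2 3 z = f at *
  have key : (z 2).re = (z 1).re ∧ (z 2).im = (z 1).im ∧ (z 0).re = a * (z 1).im ∧
      (z 0).im = -a * (z 1).re ∧ (z 3).re = -f * (z 1).im ∧ (z 3).im = f * (z 1).re ∧
      a ^ 2 + f ^ 2 = 2 ∧ ((a = -1 ∧ f = 1) ∨ a - f = 1) := by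
    generalize (z 0).re = p0 at *
    generalize (z 1).re = p1 at *
    generalize (z 2).re = p2 at *
    generalize (z 3).re = p3 at *
    generalize (z 0).im = q0 at *
    generalize (z 1).im = q1 at *
    generalize (z 2).im = q2 at *
    generalize (z 3).im = q3 at *
    have hP : p0 ^ 2 + p1 ^ 2 + p2 ^ 2 + p3 ^ 2 = 1 / 2 := by linear_combination (n1 + n2) / 2
    have hQ : q0 ^ 2 + q1 ^ 2 + q2 ^ 2 + q3 ^ 2 = 1 / 2 := by linear_combination (n1 - n2) / 2
    have hR : p0 * q0 + p1 * q1 + p2 * q2 + p3 * q3 = 0 := by linear_combination n3 / 2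
    have E13 : -c - d = 0 := by
      subst ha hb hc hd he hf
      linear_combination 4 * (q3 * r1 - p3 * i1 - q1 * r3 + p1 * i3)
    have E23 : -c + d = 0 := by
      subst ha hb hc hd he hf
      linear_combination 4 * (q3 * r2 - p3 * i2 - q2 * r3 + p2 * i3)
    have E12 : a + e - b - f = 0 := by
      subst ha hb hc hd he hf
      linear_combination 4 * (q2 * r1 - p2 * i1 - q1 * r2 + p1 * i2)
    have E03 : 2 * a * e + 2 * b * f + e + f - a - b = 0 := by
      subst ha hb hc hd he hf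
      linear_combination 4 * (q3 * r0 - p3 * i0 - q0 * r3 + p0 * i3)
    have hpl : a * f - b * e + c * d = 0 := by
      subst ha hb hc hd he hf
      ring
    have hno : a ^ 2 + b ^ 2 + c ^ 2 + d ^ 2 + e ^ 2 + f ^ 2 = 4 := by
      subst ha hb hc hd he hf
      linear_combination 16 * (q0 ^ 2 + q1 ^ 2 + q2 ^ 2 + q3 ^ 2) * hP + 8 * hQ
        - 16 * (p0 * q0 + p1 * q1 + p2 * q2 + p3 * q3) * hR
    have e0p : a * p1 + b * p2 + c * p3 = -2 * q0 := by
      subst ha hb hc
      linear_combination 4 * p0 * hR - 4 * q0 * hP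
    have e0q : a * q1 + b * q2 + c * q3 = 2 * p0 := by
      subst ha hb hc
      linear_combination 4 * p0 * hQ - 4 * q0 * hR
    have e1p : -a * p0 + d * p2 + e * p3 = -2 * q1 := by
      subst ha hd he
      linear_combination 4 * p1 * hR - 4 * q1 * hP
    have e1q : -a * q0 + d * q2 + e * q3 = 2 * p1 := by
      subst ha hd he
      linear_combination 4 * p1 * hQ - 4 * q1 * hR
    have e2p : -b * p0 - d * p1 + f * p3 = -2 * q2 := by
      subst hb hd hf
      linear_combination 4 * p2 * hR - 4 * q2 * hP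
    have e2q : -b * q0 - d * q1 + f * q3 = 2 * p2 := by
      subst hb hd hf
      linear_combination 4 * p2 * hQ - 4 * q2 * hR
    have e3p : -c * p0 - e * p1 - f * p2 = -2 * q3 := by
      subst hc he hf
      linear_combination 4 * p3 * hR - 4 * q3 * hP
    have e3q : -c * q0 - e * q1 - f * q2 = 2 * p3 := by
      subst hc he hf
      linear_combination 4 * p3 * hQ - 4 * q3 * hR
    clear ha hb hc hd he hf r0 r1 r2 r3 i0 i1 i2 i3
    obtain rfl : c = 0 := by linarith
    obtain rfl : d = 0 := by linarith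
    obtain ⟨rfl, rfl, h1, h2⟩ := solve_moment (a := a) (b := b) (e := e) (f := f)
      (by linear_combination hno) (by linear_combination hpl) E03 E12
    have hp2 : p2 = p1 := by linear_combination (e1q - e2q) / 2
    have hq2 : q2 = q1 := by linear_combination (e2p - e1p) / 2
    subst hp2 hq2
    refine ⟨rfl, rfl, ?_, ?_, ?_, ?_, h1, h2⟩
    · linear_combination -e0q / 2
    · linear_combination e0p / 2
    · linear_combination -e3q / 2
    · linear_combination e3p / 2
  obtain ⟨k1, k2, k3, k4, k5, k6, k7, k8⟩ := key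
  refine ⟨-2 * I * z 1, a, -f, by linear_combination k7, ?_, ?_⟩
  · rcases k8 with ⟨h, h'⟩ | h
    · exact Or.inl ⟨h, by rw [h']⟩
    · exact Or.inr (by linarith)
  · ext i
    fin_cases i <;> apply Complex.ext <;> simp [pt, k1, k2, k3, k4, k5, k6, h4] <;> ring

end Crest.Agent.R205
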