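import Crest.Agent.R205.Flow

/-!
The fixed lines of the time-one map and the degenerate fixed point.
-/

set_option autoImplicit false

open Crest.GeometryTopology.Quadric Complex
open scoped ContDiff NNReal Topology

noncomputable section

namespace Crest.Agent.R205

namespace FlowData

variable (D : FlowData)

theorem four_eq_zero {z : E} (hz : z ∈ unitCone) {c : ℂ} (h : D.Ψ (1, z) = c • z) : z 4 = 0 := by
  by_contra h4
  rw [Ψ_one, rot_pi] at h
  have h5 := congrFun h 4
  have h6 := D.apply_four z (t := 1) (by norm_num)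
  simp [h6] at h5
  obtain rfl : c = 1 := by
    have : (c - 1) * z 4 = 0 := by linear_combination -h5
    rcases mul_eq_zero.1 this with h | h
    · linear_combination h
    · exact absurd h h4
  have h7 : ‖D.φ (1, z) - z‖ ≤ 1 / 50 := by
    have h2 := D.displacement z
    have h3 := D.norm_Y_le z
    have h5 := norm_le_one hz
    linarith
  have h8 : ∀ j, -D.φ (1, z) j = z j → ‖z j‖ ≤ 1 / 100 := by
    intro j hj
    have := (norm_le_pi_norm (D.φ (1, z) - z) j).trans h7
    have h9 : (D.φ (1, z) - z) j = -2 * z j := by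
      rw [Pi.sub_apply]; linear_combination -hj
    rw [h9, norm_mul] at this
    simp at this
    linarith
  have a0 := h8 0 (by simpa using congrFun h 0)
  have a1 := h8 1 (by simpa using congrFun h 1)
  have a2 := h8 2 (by simpa using congrFun h 2)
  have a3 := h8 3 (by simpa using congrFun h 3)
  have b1 := sum_normSq hz
  have b2 := hz.2
  simp only [Fin.sum_univ_five] at b1 b2
  have b3 : z 4 ^ 2 = -(z 0 ^ 2 + z 1 ^ 2 + z 2 ^ 2 + z 3 ^ 2) := by linear_combination b2
  have b4 : ‖z 4‖ ^ 2 ≤ ‖z 0‖ ^ 2 + ‖z 1‖ ^ 2 + ‖z 2‖ ^ 2 + ‖z 3‖ ^ 2 := by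
    simp only [← norm_pow]
    rw [b3, norm_neg]
    exact (norm_add_le _ _).trans (add_le_add (norm_add₃_le) le_rfl)
  nlinarith [norm_nonneg (z 0), norm_nonneg (z 1), norm_nonneg (z 2), norm_nonneg (z 3)]

theorem rot_pi_of_four {y : E} (h : y 4 = 0) : rot Real.pi y = -y := by
  rw [rot_pi]
  ext i
  fin_cases i <;> simp [h]

theorem mem_fixedLines_iff (ℓ : Submodule ℂ E) : ℓ ∈ fixedLines D.lift ↔
    ∃ A B : ℝ, A ^ 2 + B ^ 2 = 2 ∧ ((A = -1 ∧ B = -1) ∨ A + B = 1) ∧
      ℓ = Submodule.span ℂ {pt A B} := by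
  constructor
  · rintro ⟨z, hz, rfl, h⟩
    obtain ⟨c, hc⟩ := Submodule.mem_span_singleton.1 h
    have h4 := D.four_eq_zero hz hc.symm
    have h5 : D.φ (1, z) = (-c) • z := by
      have h6 : D.Ψ (1, z) = c • z := hc.symm
      rw [Ψ_one, rot_pi_of_four (by rw [D.apply_four z (by norm_num), h4])] at h6
      rw [neg_smul, ← h6, neg_neg]
    obtain ⟨θ, hθ⟩ := D.equilibrium_of_fixed hz h5
    obtain ⟨e, A, B, h1, h2, h3⟩ := critical hz h4 hθ
    refine ⟨A, B, h1, h2, ?_⟩
    have he : ‖e‖ = 1 := norm_eq_one_of_smul_mem (pt_mem h1) (h3 ▸ hz)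
    have he' : e ≠ 0 := by rintro rfl; simp at he
    rw [h3, Submodule.span_singleton_smul_eq (IsUnit.mk0 e he')]
  · rintro ⟨A, B, h1, h2, rfl⟩
    refine ⟨pt A B, pt_mem h1, rfl, ?_⟩
    obtain ⟨θ, hθ⟩ : ∃ θ : ℝ, X (pt A B) = ((θ : ℂ) * I) • pt A B := by
      rcases h2 with ⟨rfl, rfl⟩ | h2
      · exact ⟨0, by simp [X_pt_star]⟩
      · exact ⟨_, X_pt h1 h2⟩
    change D.Ψ (1, pt A B) ∈ _
    rw [Ψ_one, rot_pi_of_four (by rw [D.apply_four _ (by norm_num)]; rfl),
      D.φ_of_equilibrium (pt_mem h1) hθ (by norm_num)]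
    exact Submodule.neg_mem _ (Submodule.smul_mem _ _ (Submodule.mem_span_singleton_self _))

theorem eq_of_span_eq {A B A' B' : ℝ}
    (h : Submodule.span ℂ {pt A B} = Submodule.span ℂ {pt A' B'}) : A = A' := by
  have h1 : pt A B ∈ Submodule.span ℂ {pt A' B'} := h ▸ Submodule.mem_span_singleton_self _
  obtain ⟨c, hc⟩ := Submodule.mem_span_singleton.1 h1
  have h2 := congrFun hc 1
  have h3 := congrFun hc 0
  simp [pt] at h2 h3
  subst h2
  simp at h3
  exact h3.symm

theorem ncard_fixedLines : (fixedLines D.lift).ncard = 3 := by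
  have h3 : Real.sqrt 3 ^ 2 = 3 := Real.sq_sqrt (by norm_num)
  have h3' : 0 < Real.sqrt 3 := by positivity
  refine Set.ncard_eq_three.2 ⟨Submodule.span ℂ {pt (-1) (-1)},
    Submodule.span ℂ {pt ((1 + Real.sqrt 3) / 2) ((1 - Real.sqrt 3) / 2)},
    Submodule.span ℂ {pt ((1 - Real.sqrt 3) / 2) ((1 + Real.sqrt 3) / 2)},
    fun h => ?_, fun h => ?_, fun h => ?_, ?_⟩
  · have := eq_of_span_eq h
    linarith
  · have := eq_of_span_eq h
    nlinarith
  · have := eq_of_span_eq h
    linarith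
  · ext ℓ
    rw [mem_fixedLines_iff]
    simp only [Set.mem_insert_iff, Set.mem_singleton_iff]
    constructor
    · rintro ⟨A, B, h1, h2, rfl⟩
      rcases h2 with ⟨rfl, rfl⟩ | h2
      · exact Or.inl rfl
      · obtain rfl : B = 1 - A := by linarith
        have h4 : (A - (1 + Real.sqrt 3) / 2) * (A - (1 - Real.sqrt 3) / 2) = 0 := by
          linear_combination (1 / 2) * h1 - (1 / 4) * h3
        rcases mul_eq_zero.1 h4 with h | h
        · obtain rfl : A = (1 + Real.sqrt 3) / 2 := by linarith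
          refine Or.inr (Or.inl ?_)
          congr 3
          ring
        · obtain rfl : A = (1 - Real.sqrt 3) / 2 := by linarith
          refine Or.inr (Or.inr ?_)
          congr 3
          ring
    · rintro (rfl | rfl | rfl)
      · exact ⟨-1, -1, by norm_num, Or.inl ⟨rfl, rfl⟩, rfl⟩
      · exact ⟨_, _, by linear_combination (1 / 2) * h3, Or.inr (by ring), rfl⟩
      · exact ⟨_, _, by linear_combination (1 / 2) * h3, Or.inr (by ring), rfl⟩

theorem hasDerivAt_line :
    HasDerivAt (fun s : ℝ => D.φ (1, pt (-1) (-1) + s • wv)) wv 0 := by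
  have h1 : HasDerivAt (fun s : ℝ => D.φ (1, pt (-1) (-1) + s • wv) - (pt (-1) (-1) + s • wv))
      0 0 := by
    rw [hasDerivAt_iff_isLittleO_nhds_zero]
    have hb : ∀ s : ℝ, ‖D.φ (1, pt (-1) (-1) + s • wv) - (pt (-1) (-1) + s • wv)‖ ≤
        (2 * D.ε * ‖(![-4 * I, 0, 0, 4 * I, 0] : E)‖) * ‖s ^ 2‖ := by
      intro s
      refine (D.displacement _).trans ?_
      obtain ⟨r, hr, hr'⟩ := D.mul (pt (-1) (-1) + s • wv)
      rw [hr', X_pt_add, norm_smul, norm_smul, Real.norm_eq_abs r]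
      have := mul_le_mul_of_nonneg_right hr
        (mul_nonneg (norm_nonneg (s ^ 2)) (norm_nonneg (![-4 * I, 0, 0, 4 * I, 0] : E)))
      linarith
    have h0 : D.φ (1, pt (-1) (-1) + (0 : ℝ) • wv) - (pt (-1) (-1) + (0 : ℝ) • wv) = 0 := by
      have := hb 0
      simpa using this
    simp only [zero_add, h0, sub_zero, smul_zero]
    exact (Asymptotics.IsBigO.of_bound _ (Filter.Eventually.of_forall hb)).trans_isLittleO
      (Asymptotics.isLittleO_pow_id one_lt_two)
  have h2 : HasDerivAt (fun s : ℝ => pt (-1) (-1) + s • wv) wv 0 := by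
    simpa using ((hasDerivAt_id (0 : ℝ)).smul_const wv).const_add (pt (-1) (-1))
  have h3 := h1.add h2
  rw [zero_add] at h3
  refine h3.congr_of_eventuallyEq (Filter.Eventually.of_forall fun s => ?_)
  simp

theorem degenerate : HasDegenerateFixedPoint D.lift := by
  have hm : pt (-1) (-1) ∈ unitCone := pt_mem (by norm_num)
  refine ⟨pt (-1) (-1), hm, -1, ?_, wv, ⟨?_, ?_⟩, fun r hr => ?_, 0, ?_⟩
  · change D.Ψ (1, _) = _
    rw [Ψ_one, rot_pi_of_four (by rw [D.apply_four _ (by norm_num)]; rfl),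
      D.φ_of_equilibrium hm (θ := 0) (by simp [X_pt_star]) (by norm_num)]
    simp
  · simp [herm, Fin.sum_univ_five, pt, wv]
  · simp [Fin.sum_univ_five, pt, wv]
  · have h0 := congrFun hr 0
    have h1 := congrFun hr 1
    simp [pt, wv] at h0 h1
    simp [h0] at h1
  · have hd : DifferentiableAt ℝ (fun x : E => D.Ψ (1, x)) (pt (-1) (-1)) :=
      ((D.contDiff_Ψ.differentiable (by simp)).comp
        ((differentiable_const (1 : ℝ)).prodMk differentiable_id)).differentiableAt
    have h2 : HasDerivAt (fun s : ℝ => pt (-1) (-1) + s • wv) wv 0 := by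
      simpa using ((hasDerivAt_id (0 : ℝ)).smul_const wv).const_add (pt (-1) (-1))
    have h3 := HasFDerivAt.comp_hasDerivAt_of_eq (0 : ℝ) hd.hasFDerivAt h2 (by simp)
    have h4 := (rotL Real.pi).hasFDerivAt.comp_hasDerivAt (0 : ℝ) D.hasDerivAt_line
    have h5 : (fun x : E => D.Ψ (1, x)) ∘ (fun s : ℝ => pt (-1) (-1) + s • wv) =
        (rotL Real.pi) ∘ (fun s : ℝ => D.φ (1, pt (-1) (-1) + s • wv)) := by
      funext s
      simp only [Function.comp, Ψ_one, rotL_apply]
    rw [h5] at h3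
    change fderiv ℝ (fun x : E => D.Ψ (1, x)) (pt (-1) (-1)) wv = _
    rw [h3.unique h4, rotL_apply, rot_pi_of_four rfl]
    simp

end FlowData

theorem main : ∃ L : HamiltonianConeLift, (fixedLines L).ncard = 3 ∧ HasDegenerateFixedPoint L := by
  obtain ⟨D⟩ := exists_flowData
  exact ⟨D.lift, D.ncard_fixedLines, D.degenerate⟩

end Crest.Agent.R205
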