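import Mathlib

/-!
Two elementary estimates for solutions of an autonomous Lipschitz ODE on `[0, 1]`:
a displacement bound, and the absence of short periodic orbits.
-/

set_option autoImplicit false

open Set
open scoped NNReal

namespace Crest.Agent.R205

variable {V : Type*} [NormedAddCommGroup V] [NormedSpace ℝ V]

theorem exists_speed_bound {F : V → V} {L : ℝ≥0} (hF : LipschitzWith L F) {γ : ℝ → V}
    (hγ : ∀ t ∈ Icc (0 : ℝ) 1, HasDerivAt γ (F (γ t)) t) :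
    ∃ t₀ ∈ Icc (0 : ℝ) 1, (∀ t ∈ Icc (0 : ℝ) 1, ‖F (γ t)‖ ≤ ‖F (γ t₀)‖) ∧
      ∀ s ∈ Icc (0 : ℝ) 1, ∀ t ∈ Icc (0 : ℝ) 1, ‖γ t - γ s‖ ≤ ‖F (γ t₀)‖ := by
  have hc : ContinuousOn γ (Icc 0 1) := fun t ht => (hγ t ht).continuousAt.continuousWithinAt
  have hc2 : ContinuousOn (fun t => ‖F (γ t)‖) (Icc 0 1) :=
    (hF.continuous.comp_continuousOn hc).norm
  obtain ⟨t₀, ht₀, hmax⟩ := isCompact_Icc.exists_isMaxOn (nonempty_Icc.2 zero_le_one) hc2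
  refine ⟨t₀, ht₀, fun t ht => hmax ht, fun s hs t ht => ?_⟩
  have := (convex_Icc (0 : ℝ) 1).norm_image_sub_le_of_norm_hasDerivWithin_le
    (f := γ) (f' := fun t => F (γ t)) (C := ‖F (γ t₀)‖)
    (fun x hx => (hγ x hx).hasDerivWithinAt) (fun x hx => hmax hx) hs ht
  refine this.trans (mul_le_of_le_one_right (norm_nonneg _) ?_)
  rw [Real.norm_eq_abs, abs_le]
  constructor <;> linarith [hs.1, hs.2, ht.1, ht.2]

/-- displacement bound -/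
theorem displacement_le {F : V → V} {L : ℝ≥0} (hF : LipschitzWith L F) (hL : (L : ℝ) ≤ 1 / 2)
    {γ : ℝ → V} (hγ : ∀ t ∈ Icc (0 : ℝ) 1, HasDerivAt γ (F (γ t)) t) :
    ‖γ 1 - γ 0‖ ≤ 2 * ‖F (γ 0)‖ := by
  obtain ⟨t₀, ht₀, -, h2⟩ := exists_speed_bound hF hγ
  have h0 : (0 : ℝ) ∈ Icc (0 : ℝ) 1 := ⟨le_rfl, zero_le_one⟩
  have h1 : (1 : ℝ) ∈ Icc (0 : ℝ) 1 := ⟨zero_le_one, le_rfl⟩
  have h3 := hF.dist_le_mul (γ t₀) (γ 0)
  rw [dist_eq_norm, dist_eq_norm] at h3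
  have h4 := h2 0 h0 t₀ ht₀
  have h5 := norm_sub_norm_le (F (γ t₀)) (F (γ 0))
  have h6 : (L : ℝ) * ‖γ t₀ - γ 0‖ ≤ 1 / 2 * ‖F (γ t₀)‖ :=
    mul_le_mul hL h4 (norm_nonneg _) (by norm_num)
  have h7 := h2 0 h0 1 h1
  linarith

/-- no short periodic orbits -/
theorem eq_zero_of_periodic {F : V → V} {L : ℝ≥0} (hF : LipschitzWith L F) (hL : (L : ℝ) < 1)
    {γ : ℝ → V} (hγ : ∀ t ∈ Icc (0 : ℝ) 1, HasDerivAt γ (F (γ t)) t) (hper : γ 1 = γ 0) :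
    F (γ 0) = 0 := by
  obtain ⟨t₀, ht₀, h1, h2⟩ := exists_speed_bound hF hγ
  have h0 : (0 : ℝ) ∈ Icc (0 : ℝ) 1 := ⟨le_rfl, zero_le_one⟩
  have hone : (1 : ℝ) ∈ Icc (0 : ℝ) 1 := ⟨zero_le_one, le_rfl⟩
  have h3 : ∀ t ∈ Icc (0 : ℝ) 1, ‖F (γ t) - F (γ t₀)‖ ≤ L * ‖F (γ t₀)‖ := by
    intro t ht
    have h := hF.dist_le_mul (γ t) (γ t₀)
    rw [dist_eq_norm, dist_eq_norm] at h
    exact h.trans (mul_le_mul_of_nonneg_left (h2 t₀ ht₀ t ht) L.2)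
  have h4 := (convex_Icc (0 : ℝ) 1).norm_image_sub_le_of_norm_hasDerivWithin_le
    (f := fun t => γ t - t • F (γ t₀)) (f' := fun t => F (γ t) - F (γ t₀))
    (C := L * ‖F (γ t₀)‖)
    (fun x hx => by
      have := (hγ x hx).sub ((hasDerivAt_id x).smul_const (F (γ t₀)))
      rw [one_smul] at this
      exact this.hasDerivWithinAt) h3 h0 hone
  rw [hper] at h4
  have h5 : γ 0 - (1 : ℝ) • F (γ t₀) - (γ 0 - (0 : ℝ) • F (γ t₀)) = -F (γ t₀) := by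
    rw [one_smul, zero_smul]; abel
  rw [h5, norm_neg] at h4
  have h6 : ‖(1 : ℝ) - 0‖ = 1 := by simp
  rw [h6, mul_one] at h4
  have h7 : ‖F (γ t₀)‖ ≤ 0 := by nlinarith [norm_nonneg (F (γ t₀))]
  exact norm_le_zero_iff.1 ((h1 0 h0).trans h7)

theorem const_of_hasDerivAt_zero {f : ℝ → V} (hf : ∀ t : ℝ, |t| < 2 → HasDerivAt f 0 t)
    {t : ℝ} (ht : |t| < 2) : f t = f 0 := by
  have := (convex_Ioo (-2 : ℝ) 2).norm_image_sub_le_of_norm_hasDerivWithin_le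
    (f := f) (f' := fun _ => 0) (C := 0)
    (fun x hx => (hf x (abs_lt.2 hx)).hasDerivWithinAt) (fun x _ => by simp)
    (show (0 : ℝ) ∈ Ioo (-2 : ℝ) 2 by norm_num) (show t ∈ Ioo (-2 : ℝ) 2 from abs_lt.1 ht)
  rw [zero_mul, norm_le_zero_iff, sub_eq_zero] at this
  exact this

theorem unique_of_lipschitz {F : V → V} {L : ℝ≥0} (hF : LipschitzWith L F) {f g : ℝ → V}
    (hf : ∀ t : ℝ, |t| < 2 → HasDerivAt f (F (f t)) t)
    (hg : ∀ t : ℝ, |t| < 2 → HasDerivAt g (F (g t)) t) (h0 : f 0 = g 0)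
    {t : ℝ} (ht : |t| < 2) : f t = g t :=
  ODE_solution_unique_of_mem_Ioo (v := fun _ => F) (s := fun _ => univ) (K := L)
    (a := -2) (b := 2) (t₀ := 0) (fun _ _ => hF.lipschitzOnWith) (by norm_num)
    (fun t ht => ⟨hf t (abs_lt.2 ht), trivial⟩) (fun t ht => ⟨hg t (abs_lt.2 ht), trivial⟩) h0
    (abs_lt.1 ht)

/-- the argument of a unit complex number near `1` is small -/
theorem abs_arg_le {c : ℂ} (hc : ‖c‖ = 1) (h : ‖c - 1‖ ≤ 1) : |c.arg| ≤ 2 * ‖c - 1‖ := by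
  have hre : 0 ≤ c.re := by
    have := (Complex.abs_re_le_norm (c - 1)).trans h
    rw [abs_le] at this
    simp only [Complex.sub_re, Complex.one_re] at this
    linarith [this.1]
  have h1 := Complex.abs_arg_le_pi_div_two_iff.2 hre
  have h2 := Real.mul_abs_le_abs_sin h1
  rw [Complex.sin_arg, hc, div_one] at h2
  have h3 := Complex.abs_im_le_norm (c - 1)
  simp only [Complex.sub_im, Complex.one_im, sub_zero] at h3
  have h4 : (1 : ℝ) / 2 ≤ 2 / Real.pi := by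
    rw [div_le_div_iff₀ (by norm_num) Real.pi_pos]
    linarith [Real.pi_le_four]
  have h5 := mul_le_mul_of_nonneg_right h4 (abs_nonneg c.arg)
  linarith

end Crest.Agent.R205
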