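import Crest.Agent.R205.Alg
import Crest.Agent.R205.Ode
import Crest.Agent.Lib.SmoothFlow

/-!
The cut-off field, its flow and the lifted Hamiltonian isotopy.
-/

set_option autoImplicit false

open Crest.GeometryTopology.Quadric Complex
open scoped ContDiff NNReal Topology

noncomputable section

namespace Crest.Agent.R205

/-- the data of the slowed and cut-off field with its flow -/
structure FlowData where
  ε : ℝ
  Y : E → E
  φ : ℝ × E → E
  pos : 0 < ε
  lip : LipschitzWith (1 / 100) Y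
  mul : ∀ z, ∃ r : ℝ, |r| ≤ ε ∧ Y z = r • X z
  cone : ∀ z ∈ unitCone, Y z = ε • X z
  smooth : ∀ p : ℝ × E, |p.1| < 2 → ContDiffAt ℝ ∞ φ p
  zero : ∀ z, φ (0, z) = z
  ode : ∀ z, ∀ t : ℝ, |t| < 2 → HasDerivAt (fun s => φ (s, z)) (Y (φ (t, z))) t

theorem exists_flowData : Nonempty FlowData := by
  let b : ContDiffBump (0 : E) := ⟨1, 2, one_pos, one_lt_two⟩
  have hs : ContDiff ℝ ∞ (fun z => b z • X z) := b.contDiff.smul contDiff_X
  have hc : HasCompactSupport (fun z => b z • X z) := b.hasCompactSupport.smul_right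
  obtain ⟨K, hK⟩ := hs.lipschitzWith_of_hasCompactSupport hc (by simp)
  let ε : ℝ := 1 / (100 * (K + 1))
  have hε : 0 < ε := by positivity
  have hY : ContDiff ℝ ∞ (fun z => ε • (b z • X z)) := hs.const_smul ε
  have hlip : LipschitzWith (1 / 100) (fun z => ε • (b z • X z)) := by
    refine LipschitzWith.of_dist_le_mul fun x y => ?_
    rw [dist_smul₀, Real.norm_eq_abs, abs_of_pos hε]
    refine (mul_le_mul_of_nonneg_left (hK.dist_le_mul x y) hε.le).trans ?_
    rw [← mul_assoc]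
    refine mul_le_mul_of_nonneg_right ?_ dist_nonneg
    have : (0 : ℝ) ≤ K := K.2
    simp only [ε]
    push_cast
    rw [div_mul_eq_mul_div, div_le_div_iff₀ (by positivity) (by positivity)]
    linarith
  obtain ⟨φ, h1, h2, h3⟩ := SmoothFlow.exists_smooth_flow _ hY hlip (by norm_num)
  refine ⟨⟨ε, _, φ, hε, hlip, fun z => ⟨ε * b z, ?_, smul_smul _ _ _⟩, fun z hz => ?_, h1, h2, h3⟩⟩
  · rw [abs_of_nonneg (mul_nonneg hε.le b.nonneg)]
    exact mul_le_of_le_one_right hε.le b.le_one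
  · rw [b.one_of_mem_closedBall (by simpa using norm_le_one hz), one_smul]

theorem herm_self (z : E) : herm z z = ((∑ j, ((z j).re ^ 2 + (z j).im ^ 2) : ℝ) : ℂ) := by
  simp only [herm, ofReal_sum]
  refine Finset.sum_congr rfl fun j _ => ?_
  rw [← Complex.normSq_eq_conj_mul_self, Complex.normSq_apply, sq, sq]

namespace FlowData

variable (D : FlowData)

theorem mem_cone {z : E} (hz : z ∈ unitCone) {t : ℝ} (ht : |t| < 2) : D.φ (t, z) ∈ unitCone := by
  constructor
  · have h : ∀ t : ℝ, |t| < 2 → HasDerivAt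
        (fun s => ∑ j, ((D.φ (s, z) j).re ^ 2 + (D.φ (s, z) j).im ^ 2)) 0 t := by
      intro t ht
      have h1 := HasDerivAt.fun_sum (u := Finset.univ) fun j _ =>
        (((reL j).hasFDerivAt.comp_hasDerivAt t (D.ode z t ht)).pow 2).add
          (((imL j).hasFDerivAt.comp_hasDerivAt t (D.ode z t ht)).pow 2)
      refine HasDerivAt.congr_deriv h1 ?_
      obtain ⟨r, -, hr⟩ := D.mul (D.φ (t, z))
      have h2 : (herm (D.φ (t, z)) (X (D.φ (t, z)))).re = 0 := herm_act_re _ _ _ _ _ _ _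
      simp [herm, Fin.sum_univ_five] at h2
      simp [hr, Fin.sum_univ_five]
      linear_combination 2 * r * h2
    have h2 := const_of_hasDerivAt_zero h ht
    rw [herm_self, h2, ← herm_self, D.zero]
    exact hz.1
  · have h : ∀ t : ℝ, |t| < 2 → HasDerivAt (fun s => ∑ j, (D.φ (s, z) j) ^ 2) 0 t := by
      intro t ht
      have h1 := HasDerivAt.fun_sum (u := Finset.univ) fun j _ =>
        (hasDerivAt_pi.1 (D.ode z t ht) j).pow 2
      refine HasDerivAt.congr_deriv h1 ?_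
      obtain ⟨r, -, hr⟩ := D.mul (D.φ (t, z))
      have h2 : ∑ j, D.φ (t, z) j * X (D.φ (t, z)) j = 0 := sum_mul_act _ _ _ _ _ _ _
      simp only [Fin.sum_univ_five] at h2
      simp [hr, Fin.sum_univ_five]
      linear_combination 2 * r * h2
    have h2 := const_of_hasDerivAt_zero h ht
    rw [h2, D.zero]
    exact hz.2

theorem apply_four (z : E) {t : ℝ} (ht : |t| < 2) : D.φ (t, z) 4 = z 4 := by
  have h : ∀ t : ℝ, |t| < 2 → HasDerivAt (fun s => D.φ (s, z) 4) 0 t := by
    intro t ht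
    refine HasDerivAt.congr_deriv (hasDerivAt_pi.1 (D.ode z t ht) 4) ?_
    obtain ⟨r, -, hr⟩ := D.mul (D.φ (t, z))
    simp [hr, X_four]
  have h2 := const_of_hasDerivAt_zero h ht
  rw [h2, D.zero]

theorem Y_smul {c : ℂ} (hc : ‖c‖ = 1) {z : E} (hz : z ∈ unitCone) : D.Y (c • z) = c • D.Y z := by
  rw [D.cone _ (smul_mem hc hz), D.cone _ hz, X_smul hc, smul_comm]

theorem φ_smul {c : ℂ} (hc : ‖c‖ = 1) {z : E} (hz : z ∈ unitCone) {t : ℝ} (ht : |t| < 2) :
    D.φ (t, c • z) = c • D.φ (t, z) := by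
  refine unique_of_lipschitz D.lip (f := fun s => D.φ (s, c • z)) (g := fun s => c • D.φ (s, z))
    (D.ode _) (fun s hs => ?_) (by simp only [D.zero]) ht
  rw [D.Y_smul hc (D.mem_cone hz hs)]
  exact (D.ode z s hs).const_smul c

theorem hasDerivAt_cexp (θ t : ℝ) :
    HasDerivAt (fun s : ℝ => cexp ((s : ℂ) * (θ * I))) (cexp ((t : ℂ) * (θ * I)) * (θ * I)) t := by
  have h := ((Complex.ofRealCLM.hasDerivAt (x := t)).mul_const ((θ : ℂ) * I)).cexp
  simpa using h

theorem norm_cexp (θ t : ℝ) : ‖cexp ((t : ℂ) * (θ * I))‖ = 1 := by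
  rw [← mul_assoc, ← ofReal_mul, Complex.norm_exp_ofReal_mul_I]

theorem φ_of_equilibrium {z : E} (hz : z ∈ unitCone) {θ : ℝ} (h : X z = ((θ : ℂ) * I) • z)
    {t : ℝ} (ht : |t| < 2) : D.φ (t, z) = cexp ((t : ℂ) * ((D.ε * θ : ℝ) * I)) • z := by
  refine unique_of_lipschitz D.lip (f := fun s => D.φ (s, z))
    (g := fun s => cexp ((s : ℂ) * ((D.ε * θ : ℝ) * I)) • z)
    (D.ode _) (fun s _ => ?_) (by simp [D.zero]) ht
  rw [D.Y_smul (norm_cexp _ _) hz, D.cone z hz, h]
  refine HasDerivAt.congr_deriv ((hasDerivAt_cexp (D.ε * θ) s).smul_const z) ?_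
  ext i
  simp
  ring

theorem displacement (z : E) : ‖D.φ (1, z) - z‖ ≤ 2 * ‖D.Y z‖ := by
  have := displacement_le D.lip (by norm_num) (γ := fun s => D.φ (s, z))
    (fun t ht => D.ode z t (by rw [abs_lt]; constructor <;> linarith [ht.1, ht.2]))
  simpa only [D.zero] using this

theorem norm_Y_le (z : E) : ‖D.Y z‖ ≤ 1 / 100 * ‖z‖ := by
  have h := D.lip.dist_le_mul z 0
  obtain ⟨r, -, hr⟩ := D.mul 0
  rw [hr, X_zero, smul_zero, dist_zero_right, dist_zero_right] at h
  simpa using h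

/-- a projectively fixed point of the time-one flow is a relative equilibrium -/
theorem equilibrium_of_fixed {z : E} (hz : z ∈ unitCone) {c : ℂ} (h : D.φ (1, z) = c • z) :
    ∃ θ : ℝ, X z = ((θ : ℂ) * I) • z := by
  have hc : ‖c‖ = 1 := norm_eq_one_of_smul_mem hz (h ▸ D.mem_cone hz (by norm_num))
  have h1 : ‖c - 1‖ ≤ 1 / 50 := by
    have h2 := D.displacement z
    have h3 := D.norm_Y_le z
    have h4 : D.φ (1, z) - z = (c - 1) • z := by rw [h, sub_smul, one_smul]
    rw [h4, norm_smul] at h2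
    have h5 := third_le_norm hz
    have h6 : ‖c - 1‖ * ‖z‖ ≤ 1 / 50 * ‖z‖ := by linarith
    exact le_of_mul_le_mul_right h6 (by linarith)
  have h2 := abs_arg_le hc (by linarith)
  set θ := c.arg with hθ
  have hexp : cexp ((θ : ℂ) * I) = c := by
    have := Complex.norm_mul_exp_arg_mul_I c
    rwa [hc, ofReal_one, one_mul] at this
  let F : E → E := fun x => D.Y x + (((-θ : ℝ) : ℂ) * I) • x
  have hF : LipschitzWith (1 / 2) F := by
    refine LipschitzWith.of_dist_le_mul fun x y => ?_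
    refine (dist_add_add_le _ _ _ _).trans ?_
    have h3 := D.lip.dist_le_mul x y
    rw [dist_smul₀, norm_mul, Complex.norm_real, Complex.norm_I, Real.norm_eq_abs, abs_neg,
      mul_one]
    have h4 : |θ| * dist x y ≤ 1 / 25 * dist x y :=
      mul_le_mul_of_nonneg_right (by linarith) dist_nonneg
    push_cast at h3 ⊢
    linarith [dist_nonneg (x := x) (y := y)]
  have h3 := eq_zero_of_periodic hF (by norm_num)
    (γ := fun s => cexp ((s : ℂ) * ((-θ : ℝ) * I)) • D.φ (s, z)) (fun t ht => by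
      have ht' : |t| < 2 := by rw [abs_lt]; constructor <;> linarith [ht.1, ht.2]
      refine HasDerivAt.congr_deriv ((hasDerivAt_cexp (-θ) t).smul (D.ode z t ht')) ?_
      simp only [F]
      rw [D.Y_smul (norm_cexp _ _) (D.mem_cone hz ht'), smul_smul, mul_comm (cexp _)]) (by
      simp only [h, D.zero, smul_smul, ← hexp, ← Complex.exp_add]
      simp)
  simp only [F, D.zero, ofReal_zero, zero_mul, Complex.exp_zero, one_smul, D.cone z hz] at h3
  refine ⟨θ / D.ε, ?_⟩
  have hε : (D.ε : ℂ) ≠ 0 := by exact_mod_cast D.pos.ne'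
  ext i
  have h4 := congrFun h3 i
  simp at h4 ⊢
  field_simp
  linear_combination h4

/-- the lifted isotopy -/
def Ψ (p : ℝ × E) : E := rot (Real.pi * p.1) (D.φ (Real.sin (Real.pi / 2 * p.1), p.2))

/-- the lifted Hamiltonian -/
def H (p : ℝ × E) : ℝ := Real.pi * ((1 / 2) * (mu 0 1 p.2 + mu 2 3 p.2)) +
  (Real.cos (Real.pi / 2 * p.1) * (Real.pi / 2) * D.ε) * G (rot (-(Real.pi * p.1)) p.2)

theorem abs_sin_lt (x : ℝ) : |Real.sin x| < 2 := (Real.abs_sin_le_one x).trans_lt one_lt_two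

theorem contDiff_rot {F : Type*} [NormedAddCommGroup F] [NormedSpace ℝ F] {a : F → ℝ} {y : F → E}
    (ha : ContDiff ℝ ∞ a) (hy : ContDiff ℝ ∞ y) : ContDiff ℝ ∞ (fun p => rot (a p) (y p)) := by
  unfold rot
  exact ((ha.cos.smul (hy.continuousLinearMap_comp (Pl.restrictScalars ℝ))).add
    (ha.sin.smul (hy.continuousLinearMap_comp (Jl.restrictScalars ℝ)))).add
    (hy.continuousLinearMap_comp (Ql.restrictScalars ℝ))

theorem contDiff_Ψ : ContDiff ℝ ∞ D.Ψ := by
  refine contDiff_rot (by fun_prop) (contDiff_iff_contDiffAt.2 fun p => ?_)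
  refine ContDiffAt.comp (g := D.φ) p (D.smooth _ (abs_sin_lt _)) ?_
  fun_prop

theorem contDiff_H : ContDiff ℝ ∞ D.H := by
  have h1 : ContDiff ℝ ∞ (fun p : ℝ × E => G (rot (-(Real.pi * p.1)) p.2)) :=
    contDiff_G.comp (contDiff_rot (by fun_prop) contDiff_snd)
  have h2 := contDiff_mu
  unfold H
  fun_prop

theorem hasDerivAt_Ψ (z : E) (t : ℝ) : HasDerivAt (fun s => D.Ψ (s, z))
    (Real.pi • Jl (D.Ψ (t, z)) + rot (Real.pi * t) ((Real.cos (Real.pi / 2 * t) * (Real.pi / 2)) •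
      D.Y (D.φ (Real.sin (Real.pi / 2 * t), z)))) t := by
  have h1 : HasDerivAt (fun s => Real.sin (Real.pi / 2 * s))
      (Real.cos (Real.pi / 2 * t) * (Real.pi / 2)) t := by
    simpa using ((hasDerivAt_id t).const_mul (Real.pi / 2)).sin
  have h2 := (D.ode z _ (abs_sin_lt (Real.pi / 2 * t))).scomp t h1
  have h3 : HasDerivAt (fun s => Real.pi * s) Real.pi t := by
    simpa using (hasDerivAt_id t).const_mul Real.pi
  have h4 := ((h3.cos.smul ((Pl.restrictScalars ℝ).hasFDerivAt.comp_hasDerivAt t h2)).add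
    (h3.sin.smul ((Jl.restrictScalars ℝ).hasFDerivAt.comp_hasDerivAt t h2))).add
    ((Ql.restrictScalars ℝ).hasFDerivAt.comp_hasDerivAt t h2)
  refine HasDerivAt.congr_deriv h4 ?_
  simp only [Ψ]
  rw [← Jl_rot]
  simp only [rot, ContinuousLinearMap.coe_restrictScalars', Function.comp]
  module

theorem hasFDerivAt_H (t : ℝ) (x : E) : HasFDerivAt (fun x => D.H (t, x))
    (Real.pi • ((1 / 2 : ℝ) • (dmu 0 1 x + dmu 2 3 x)) +
      (Real.cos (Real.pi / 2 * t) * (Real.pi / 2) * D.ε) •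
        ((dG (rot (-(Real.pi * t)) x)).comp (rotL (-(Real.pi * t))))) x := by
  have h1 : HasFDerivAt (fun x => G (rot (-(Real.pi * t)) x))
      ((dG (rot (-(Real.pi * t)) x)).comp (rotL (-(Real.pi * t)))) x :=
    (hasFDerivAt_G _).comp x (rotL (-(Real.pi * t))).hasFDerivAt
  have h2 := ((((hasFDerivAt_mu 0 1 x).add (hasFDerivAt_mu 2 3 x)).const_mul
    (1 / 2 : ℝ)).const_mul Real.pi).add
    (h1.const_mul (Real.cos (Real.pi / 2 * t) * (Real.pi / 2) * D.ε))
  exact h2

/-- the Hamiltonian isotopy -/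
def lift : HamiltonianConeLift where
  Ψ := D.Ψ
  H := D.H
  smooth_Ψ := D.contDiff_Ψ
  smooth_H := D.contDiff_H
  mapsTo_cone := fun _ _ hz => rot_mem (D.mem_cone hz (abs_sin_lt _))
  compatible := fun t z hz c hc => ⟨c, by
    simp only [Ψ]
    rw [D.φ_smul hc hz (abs_sin_lt _), rot_smul]⟩
  start := fun z _ => ⟨1, by simp [Ψ, D.zero, rot_zero]⟩
  invariant := fun t z _ c hc => by
    simp only [H, mu_smul hc, rot_smul, G_smul hc]
  hamilton := fun t _ z hz w _ => by
    rw [(D.hasDerivAt_Ψ z t).deriv, (D.hasFDerivAt_H t _).fderiv, herm_add_left,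
      herm_real_smul_left, herm_rot, D.cone _ (D.mem_cone hz (abs_sin_lt _)), smul_smul,
      herm_real_smul_left, add_im, im_ofReal_mul, im_ofReal_mul]
    have h1 := ham_J (D.Ψ (t, z)) w
    have h2 := ham_X (D.φ (Real.sin (Real.pi / 2 * t), z)) (rot (-(Real.pi * t)) w)
    have h3 : rot (-(Real.pi * t)) (D.Ψ (t, z)) = D.φ (Real.sin (Real.pi / 2 * t), z) :=
      rot_neg_rot _ _
    simp only [_root_.add_apply, _root_.smul_apply, smul_eq_mul,
      ContinuousLinearMap.comp_apply, rotL_apply, h3]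
    linear_combination Real.pi * h1 + (Real.cos (Real.pi / 2 * t) * (Real.pi / 2) * D.ε) * h2

theorem Ψ_one (z : E) : D.Ψ (1, z) = rot Real.pi (D.φ (1, z)) := by
  simp [Ψ]

end FlowData

end Crest.Agent.R205
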